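import Crest.Agent.R339.D2.Top.A

/-! # Row 339, D2/Top part C: running the program on every class -/

set_option autoImplicit false
open MeasureTheory ProbabilityTheory Filter Topology Complex
open Crest.MathPhysics.SpinGlass

namespace Crest.Agent.R339
variable {E K : Type} [NormedAddCommGroup E] [InnerProductSpace ℂ E]
  [NormedAddCommGroup K] [InnerProductSpace ℂ K] [CompleteSpace K]
namespace Model
variable {M : Model E K} {j : Lp K 2 mu0 →ₗᵢ[ℂ] E} {η : ℝ} {P : ℕ → List (ℝ × (ℕ → ℝ))}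
  {f : Set ℝ → ℕ → E}

/-- the classes. -/
def _root_.Crest.Agent.R339.tpc (η : ℝ) (L t : ℕ) : Set ℝ :=
  Dt η ∩ Set.Ico ((t : ℝ) / L) (((t : ℝ) + 1) / L)

theorem tpc_meas (η : ℝ) (L t : ℕ) : MeasurableSet (tpc η L t) := by
  exact (b4_Dt η).inter measurableSet_Ico

theorem tpc_le (η : ℝ) {L : ℕ} (hL : 0 < L) (t : ℕ) : mu0.real (tpc η L t) ≤ 1 / L := by
  have hL' : (0 : ℝ) < L := Nat.cast_pos.2 hL
  have h1 : mu0.real (tpc η L t) ≤ volume.real (Set.Ico ((t : ℝ) / L) (((t : ℝ) + 1) / L)) := by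
    rw [mu0, measureReal_restrict_apply (tpc_meas η L t)]
    exact measureReal_mono (fun u hu => hu.1.2) (by simp)
  rw [Real.volume_real_Ico_of_le (by gcongr; linarith)] at h1
  refine h1.trans (le_of_eq ?_)
  ring

theorem tpc_cover (h0 : 0 < η) {L : ℕ} (hL : 0 < L) {u : ℝ} (hu : u ∈ Dt η) :
    ∃ t < L, u ∈ tpc η L t := by
  have hL' : (0 : ℝ) < L := Nat.cast_pos.2 hL
  have hu0 : 0 ≤ u := by linarith [hu.1]
  have hu1 : u < 1 := hu.2
  refine ⟨⌊u * L⌋₊, (Nat.floor_lt (by positivity)).2 (by nlinarith), hu, ?_, ?_⟩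
  · rw [div_le_iff₀ hL']
    exact Nat.floor_le (by positivity)
  · rw [lt_div_iff₀ hL']
    exact Nat.lt_floor_add_one _

theorem tpc_disj {L : ℕ} (hL : 0 < L) {t n : ℕ} (h : t < n) {u : ℝ} (hu : u ∈ tpc η L t) :
    u ∉ tpc η L n := by
  intro hn
  have hL' : (0 : ℝ) < L := Nat.cast_pos.2 hL
  have h1 : (n : ℝ) / L < ((t : ℝ) + 1) / L := hn.2.1.trans_lt hu.2.2
  rw [div_lt_div_iff_of_pos_right hL'] at h1
  have h2 : n < t + 1 := by exact_mod_cast h1
  omega

theorem top_trF (M : Model E K) (ϑ : List (ℝ × (ℕ → ℝ))) (k : ℕ) (g : ℕ ⊕ Bool → E) :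
    M.trF ((Finset.range (k + 1)).map Function.Embedding.inl) g
      (ϑ.map fun t => (t.1, Sum.elim t.2 0)) = M.opS ϑ k fun i => g (Sum.inl i) := by
  unfold trF opS dirOf
  rw [List.map_map]
  congr 1
  refine List.map_congr_left fun t _ => ?_
  simp [Finset.sum_map]

/-- one processed class. -/
theorem top_wclose {Θ U T T' : K →L[ℂ] K} (hΘ : M.TopTh Θ) (hS : ∀ Wu, M.SigComm f Wu → Commute Θ Wu)
    {Y : Finset K} (hY : ∀ y ∈ Y, ‖y‖ ≤ 1) {δ e : ℝ} (hδ : 0 ≤ δ) (hT : T ∈ unitary (K →L[ℂ] K))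
    (hU : ‖U - eI (M.Z * Θ)‖ ≤ δ) {θ : ℂ} (hθ : ‖θ‖ = 1) (h1 : M.Wclose f 1 T Y e)
    (h2 : ∀ y ∈ Y, ‖T' y - θ • U (T y)‖ ≤ δ) : M.Wclose f (eI (M.Z * Θ)) T' Y (e + 2 * δ) := by
  obtain ⟨Wu, hWu, hZ, hX, hsig, hw⟩ := h1
  refine ⟨θ • Wu, unit_smul hWu hθ, hZ.smul_right θ, hX.smul_right θ, SigComm.smul M hsig θ,
    fun y hy => ?_⟩
  have hc : Wu (eI (M.Z * Θ) y) = eI (M.Z * Θ) (Wu y) :=
    congrArg (fun A : K →L[ℂ] K => A y) (topE_commute hZ (hS Wu hsig)).eq
  have e1 : T' y - (θ • Wu) (eI (M.Z * Θ) y) = (T' y - θ • U (T y)) +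
      θ • ((U - eI (M.Z * Θ)) (T y) + eI (M.Z * Θ) (T y - Wu y)) := by
    rw [smul_apply, hc, sub_apply, map_sub]
    module
  have a1 : ‖(U - eI (M.Z * Θ)) (T y)‖ ≤ δ := by
    refine ((U - eI (M.Z * Θ)).le_opNorm _).trans ?_
    rw [unit_norm hT]
    calc _ ≤ δ * 1 := mul_le_mul hU (hY y hy) (norm_nonneg _) hδ
      _ = δ := mul_one _
  have a2 : ‖eI (M.Z * Θ) (T y - Wu y)‖ ≤ e := by
    rw [unit_norm hΘ.mem]
    exact hw y hy
  rw [e1]
  refine (norm_add_le _ _).trans ?_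
  rw [norm_smul, hθ, one_mul]
  have a3 := norm_add_le ((U - eI (M.Z * Θ)) (T y)) (eI (M.Z * Θ) (T y - Wu y))
  have a4 := h2 y hy
  linarith

theorem top_run (hf : M.IsSig j η P f) (h0 : 0 < η)
    (ϑ : List (ℝ × (ℕ → ℝ))) (k : ℕ) (h : M.ProgOK j η f k) {L : ℕ} (hL : 200 < L) {Y : Finset K}
    (hY : ∀ y ∈ Y, ‖y‖ ≤ 1) (hΩ : M.Ω ∈ Y) (hZ : M.Z M.Ω ∈ Y) {e : ℝ} (he : 0 < e) :
    ∃ V, M.MGood j V ∧ ∀ t < L, ∀ u ∈ tpc η L t,
      M.Wclose f (eI (M.Z * M.opS ϑ k (f (tpc η L t)))) (V u) Y e := by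
  have hL0 : 0 < L := by omega
  have hL' : (200 : ℝ) < L := by exact_mod_cast hL
  set δ : ℝ := min e (1 / 100) / (2 * L) with hδdef
  have hmin : 0 < min e (1 / 100) := lt_min he (by norm_num)
  have hδ : 0 < δ := by positivity
  have hLδ : (L : ℝ) * (2 * δ) = min e (1 / 100) := by rw [hδdef]; field_simp
  obtain ⟨p, hp, hprog⟩ := M.trot ((Finset.range (k + 1)).map Function.Embedding.inl)
    (ϑ.map fun t => (t.1, Sum.elim t.2 0)) δ hδ
  have hp' : ProgIn {i | ∀ n, i = Sum.inl n → n ≤ k} p := by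
    intro i γ hi n hn
    have := hp i γ hi
    subst hn
    simpa [Nat.lt_succ_iff] using this
  have key : ∀ n ≤ L, ∃ V a, M.Inv j η f V a ∧
      (∀ t < n, ∀ u ∈ tpc η L t,
        M.Wclose f (eI (M.Z * M.opS ϑ k (f (tpc η L t)))) (V u) Y (n * (2 * δ))) ∧
      (∀ u ∈ Dt η, (∀ t < n, u ∉ tpc η L t) → M.Wclose f 1 (V u) Y (n * (2 * δ))) := by
    intro n
    induction n with
    | zero =>
      intro _
      exact ⟨fun _ => 1, η, inv_one h0, fun t ht => absurd ht (Nat.not_lt_zero t),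
        fun u _ _ => wclose_refl _ _ (by simp)⟩
    | succ n ih =>
      intro hn
      obtain ⟨V, a, hV, hA, hB⟩ := ih (by omega)
      have hm := tpc_meas η L n
      have hnδ : (n : ℝ) * (2 * δ) ≤ 1 / 100 := by
        have h1 : (n : ℝ) ≤ L := by exact_mod_cast (show n ≤ L by omega)
        calc _ ≤ (L : ℝ) * (2 * δ) := by gcongr
          _ ≤ 1 / 100 := by rw [hLδ]; exact min_le_right _ _
      have hctx : Ctx η (∅ ∪ tpc η L n) := by
        rw [Set.empty_union]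
        refine ⟨hm, fun u hu => hu.1, (tpc_le η hL0 n).trans_lt ?_⟩
        exact one_div_lt_one_div_of_lt (by norm_num) hL'
      have hnear : M.Near η V (∅ ∪ tpc η L n) := by
        intro u hu
        have hVu := hV.good.mem M u
        by_cases hex : ∃ t < n, u ∈ tpc η L t
        · obtain ⟨t, ht, hut⟩ := hex
          have hΘ := M.topTh_opS ϑ k (f (tpc η L t))
          have hps : M.psi (eI (M.Z * M.opS ϑ k (f (tpc η L t)))) = M.Z M.Ω :=
            M.psi_of_commute hΘ.mem (topE_commute (Commute.refl _) hΘ.cZ.symm)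
          have := (hA t ht u hut).psi hΘ.mem hVu hΩ (by rw [hps]; exact hZ)
          rw [hps] at this
          linarith
        · have := (hB u hu.1 fun t ht hut => hex ⟨t, ht, hut⟩).psi (one_mem _) hVu hΩ
            (by rw [M.psi_one]; exact hZ)
          rw [M.psi_one] at this
          linarith
      obtain ⟨V', a', -, hV', -, ⟨θ, hθ, hrun⟩, -, -, hW, -⟩ := h p V a ∅ (tpc η L n) (fun _ => ∅) Y δ hp'
        hV hctx MeasurableSet.empty hm (Set.empty_disjoint _) hnear (fun _ => MeasurableSet.empty)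
        (Set.empty_subset _) (Set.empty_subset _) hδ
      have hcast : ((n + 1 : ℕ) : ℝ) * (2 * δ) = n * (2 * δ) + 2 * δ := by push_cast; ring
      have hU := (hprog (progDir M j f ∅ (tpc η L n) (fun _ => ∅) V) (by
        intro i hi i' hi'
        obtain ⟨b, -, rfl⟩ := Finset.mem_map.1 hi
        obtain ⟨b', -, rfl⟩ := Finset.mem_map.1 hi'
        exact M.sig_im hf h0 hctx.1 hctx.1 b b')).1
      rw [top_trF] at hU
      have hg : (fun i => progDir M j f ∅ (tpc η L n) (fun _ => ∅) V (Sum.inl i)) = f (tpc η L n) := by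
        funext i
        change f (∅ ∪ tpc η L n) i = _
        rw [Set.empty_union]
      rw [hg] at hU
      refine ⟨V', a', hV', fun t ht u hut => ?_, fun u hu hnot => ?_⟩
      · rw [hcast]
        rcases Nat.lt_succ_iff_lt_or_eq.1 ht with ht | rfl
        · have hw := hW u ⟨hut.1, by rw [Set.empty_union]; exact tpc_disj hL0 ht hut⟩
          exact ((hA t ht u hut).trans hw).mono (Finset.Subset.refl _) (by linarith)
        · exact top_wclose (M.topTh_opS ϑ k _) (fun Wu hWu => SigComm.opS M hWu ϑ k hm) hY hδ.le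
            (hV.good.mem M u) hU hθ (hB u hut.1 fun t' ht' hu' => tpc_disj hL0 ht' hu' hut)
            (hrun u hut)
      · rw [hcast]
        have hw := hW u ⟨hu, by rw [Set.empty_union]; exact hnot n (Nat.lt_succ_self n)⟩
        exact ((hB u hu fun t ht => hnot t (by omega)).trans hw).mono (Finset.Subset.refl _)
          (by linarith)
  obtain ⟨V, a, hV, hA, -⟩ := key L le_rfl
  refine ⟨V, hV.good, fun t ht u hu => (hA t ht u hu).mono (Finset.Subset.refl _) ?_⟩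
  rw [hLδ]
  exact min_le_left _ _

end Model
end Crest.Agent.R339
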