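import Crest.Agent.R339.D2.Trot

/-! # Row 339, D2/Top part A: the operator `eI (Z Θ)` and the vector `E* Y E Ω` -/

set_option autoImplicit false
open MeasureTheory ProbabilityTheory Filter Topology Complex
open Crest.MathPhysics.SpinGlass

namespace Crest.Agent.R339
variable {E K : Type} [NormedAddCommGroup E] [InnerProductSpace ℂ E]
  [NormedAddCommGroup K] [InnerProductSpace ℂ K] [CompleteSpace K]
namespace Model
variable {M : Model E K} {j : Lp K 2 mu0 →ₗᵢ[ℂ] E} {η : ℝ} {P : ℕ → List (ℝ × (ℕ → ℝ))}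
  {f : Set ℝ → ℕ → E}

/-- `Θ` is a self-adjoint function of the fields. -/
structure TopTh (M : Model E K) (Θ : K →L[ℂ] K) : Prop where
  sa : star Θ = Θ
  cZ : Commute M.Z Θ
  cX : Commute M.X Θ

/-- `E* Y E Ω` with `E = exp (-i Z Θ)`. -/
noncomputable def topG (M : Model E K) (Θ : K →L[ℂ] K) : K :=
  star (eI (M.Z * Θ)) (M.Y (eI (M.Z * Θ) M.Ω))

/-- the `X`-odd part of `topG`. -/
noncomputable def topOdd (M : Model E K) (Θ : K →L[ℂ] K) : K :=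
  (-I / 2 : ℂ) • M.Z (eI (-((2 : ℂ) • Θ)) M.Ω + eI ((2 : ℂ) • Θ) M.Ω)

/-- `opS_star`, `opS_commute` with `Z_W`, `X_W`. -/
theorem topTh_opS (M : Model E K) (Q : List (ℝ × (ℕ → ℝ))) (q : ℕ) (g : ℕ → E) :
    M.TopTh (M.opS Q q g) := by
  exact ⟨M.opS_star Q q g, (M.opS_commute Q q g fun _ _ _ => (M.Z_W _).symm).symm,
    (M.opS_commute Q q g fun _ _ _ => (M.X_W _).symm).symm⟩

theorem TopTh.topA_sa {Θ : K →L[ℂ] K} (h : M.TopTh Θ) : star (M.Z * Θ) = M.Z * Θ := by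
  rw [star_mul, h.sa, M.Z_star, h.cZ.eq]

theorem TopTh.topA_sa2 {Θ : K →L[ℂ] K} (h : M.TopTh Θ) :
    star ((2 : ℂ) • Θ) = (2 : ℂ) • Θ := by
  rw [star_smul, h.sa]; simp

theorem TopTh.topA_sa3 {Θ : K →L[ℂ] K} (h : M.TopTh Θ) :
    star (-((2 : ℂ) • Θ)) = -((2 : ℂ) • Θ) := by
  rw [star_neg, h.topA_sa2]

theorem topA_Y_commute {T : K →L[ℂ] K} (hZ : Commute M.Z T) (hX : Commute M.X T) :
    Commute M.Y T := by
  unfold Model.Y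
  exact (hX.mul_left hZ).smul_left I

theorem topA_Y_Z (M : Model E K) : M.Y * M.Z = -(M.Z * M.Y) := by
  rw [M.Y_Z_eq, M.Z_Y_eq, neg_smul, neg_neg]

theorem TopTh.mem {Θ : K →L[ℂ] K} (h : M.TopTh Θ) : eI (M.Z * Θ) ∈ unitary (K →L[ℂ] K) := by
  exact eI_mem h.topA_sa

/-- `eI_commute`. -/
theorem topE_commute {Θ T : K →L[ℂ] K} (hZ : Commute M.Z T) (hΘ : Commute Θ T) :
    Commute T (eI (M.Z * Θ)) := by
  exact eI_commute (hZ.symm.mul_right hΘ.symm)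

theorem TopTh.norm_topG {Θ : K →L[ℂ] K} (h : M.TopTh Θ) : ‖M.topG Θ‖ = 1 := by
  unfold topG
  rw [unit_norm (Unitary.star_mem h.mem), unit_norm M.Y_mem, unit_norm h.mem, M.norm_Ω]

theorem TopTh.topA_YE {Θ : K →L[ℂ] K} (h : M.TopTh Θ) :
    M.Y * eI (M.Z * Θ) = eI (-(M.Z * Θ)) * M.Y := by
  have h1 := eI_conj M.Y_mem (M.Z * Θ)
  have h2 : star M.Y * (M.Z * Θ) * M.Y = -(M.Z * Θ) := by
    rw [M.Y_star, ← mul_assoc, M.topA_Y_Z, mul_assoc, ← (topA_Y_commute h.cZ h.cX).eq,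
      ← mul_assoc, neg_mul, mul_assoc M.Z, M.Y_Y, mul_one, neg_mul]
  rw [h2, M.Y_star] at h1
  rw [← h1, mul_assoc, M.Y_Y, mul_one]

theorem TopTh.topA_eig {Θ B : K →L[ℂ] K} (h : M.TopTh Θ) (hB : star B = B)
    (hc : Commute (M.Z * Θ) B) (x : K) (hx : -(M.Z * Θ) x + -(M.Z * Θ) x = B x) :
    eI (-(M.Z * Θ)) (eI (-(M.Z * Θ)) x) = eI B x := by
  have h1 : eI (-(M.Z * Θ)) (eI (-(M.Z * Θ)) x) = eI (-(M.Z * Θ) + -(M.Z * Θ)) x := by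
    rw [eI_add (Commute.refl _)]; rfl
  have hs : star (-(M.Z * Θ) + -(M.Z * Θ)) = -(M.Z * Θ) + -(M.Z * Θ) := by
    rw [star_add, star_neg, h.topA_sa]
  have h2 := eI_duhamel hs hB (hc.neg_left.add_left hc.neg_left) x
  have h3 : (-(M.Z * Θ) + -(M.Z * Θ)) x - B x = 0 := by
    rw [← hx]; simp
  rw [h3, norm_zero] at h2
  rw [h1]
  exact sub_eq_zero.mp (norm_le_zero_iff.mp h2)

/-- `eI_conj` with `U = Y`: `Y E Y = eI (-(Z Θ)) = E*`, so `topG = eI (-(2 • Z Θ)) (Y Ω)` (`eI_add`);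
`Y Ω = -i (P false Ω - P true Ω)`; on vectors with `Z x = s x` `eI_duhamel` gives
`eI (c • Z Θ) x = eI (c s • Θ) x` (the bound is `0`); `P b` commutes with `eI (c • Θ)`; unfold `P`. -/
theorem TopTh.topG_eq {Θ : K →L[ℂ] K} (h : M.TopTh Θ) : M.topG Θ =
    (1 / (2 * I) : ℂ) • (eI (-((2 : ℂ) • Θ)) M.Ω - eI ((2 : ℂ) • Θ) M.Ω) + M.topOdd Θ := by
  have hZΘ : Commute (M.Z * Θ) Θ := h.cZ.mul_left (Commute.refl Θ)
  have hap : ∀ x, (M.Z * Θ) x = Θ (M.Z x) := by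
    intro x; rw [h.cZ.eq]; rfl
  have hZZ : ∀ x, M.Z (M.Z x) = x := by
    intro x
    have := congrArg (fun T : K →L[ℂ] K => T x) M.Z_Z
    simpa using this
  have e1 : eI (-(M.Z * Θ)) (eI (-(M.Z * Θ)) (M.Ω + M.Z M.Ω)) =
      eI (-((2 : ℂ) • Θ)) (M.Ω + M.Z M.Ω) := by
    refine h.topA_eig h.topA_sa3 (hZΘ.smul_right _).neg_right _ ?_
    rw [hap, map_add M.Z, hZZ, add_comm (M.Z M.Ω)]
    simp [two_smul]
  have e2 : eI (-(M.Z * Θ)) (eI (-(M.Z * Θ)) (M.Ω - M.Z M.Ω)) =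
      eI ((2 : ℂ) • Θ) (M.Ω - M.Z M.Ω) := by
    refine h.topA_eig h.topA_sa2 (hZΘ.smul_right _) _ ?_
    rw [hap, map_sub M.Z, hZZ, ← neg_sub M.Ω, map_neg, neg_neg]
    simp [two_smul]
  have c1 : eI (-((2 : ℂ) • Θ)) (M.Z M.Ω) = M.Z (eI (-((2 : ℂ) • Θ)) M.Ω) := by
    have := (eI_commute (h.cZ.smul_right (2 : ℂ)).neg_right).eq
    exact (congrArg (fun T : K →L[ℂ] K => T M.Ω) this).symm
  have c2 : eI ((2 : ℂ) • Θ) (M.Z M.Ω) = M.Z (eI ((2 : ℂ) • Θ) M.Ω) := by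
    have := (eI_commute (h.cZ.smul_right (2 : ℂ))).eq
    exact (congrArg (fun T : K →L[ℂ] K => T M.Ω) this).symm
  have h0 : M.topG Θ = eI (-(M.Z * Θ)) (eI (-(M.Z * Θ)) (M.Y M.Ω)) := by
    unfold topG
    rw [eI_star h.topA_sa]
    exact congrArg _ (congrArg (fun T : K →L[ℂ] K => T M.Ω) h.topA_YE)
  have hY : M.Y M.Ω = (-I / 2 : ℂ) • ((M.Ω + M.Z M.Ω) - (M.Ω - M.Z M.Ω)) := by
    rw [M.Y_Ω]; module
  have hI : (1 / (2 * I) : ℂ) = -I / 2 := by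
    field_simp; simp
  rw [h0, hY, map_smul, map_smul, map_sub, map_sub, e1, e2, map_add, map_sub, c1, c2, hI]
  unfold topOdd
  rw [map_add]
  module

/-- `X` commutes with `eI (c • Θ)`, `X Ω = Ω`, `a7_X_Z_odd`. -/
theorem TopTh.X_topOdd {Θ : K →L[ℂ] K} (h : M.TopTh Θ) : M.X (M.topOdd Θ) = - M.topOdd Θ := by
  have c1 : M.X (eI (-((2 : ℂ) • Θ)) M.Ω) = eI (-((2 : ℂ) • Θ)) M.Ω := by
    have := (eI_commute (h.cX.smul_right (2 : ℂ)).neg_right).eq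
    have h2 := congrArg (fun T : K →L[ℂ] K => T M.Ω) this
    simpa [M.X_Ω] using h2
  have c2 : M.X (eI ((2 : ℂ) • Θ) M.Ω) = eI ((2 : ℂ) • Θ) M.Ω := by
    have := (eI_commute (h.cX.smul_right (2 : ℂ))).eq
    have h2 := congrArg (fun T : K →L[ℂ] K => T M.Ω) this
    simpa [M.X_Ω] using h2
  unfold topOdd
  rw [map_smul, M.a7_X_Z_odd (by rw [map_add, c1, c2]), smul_neg]

/-- `topG_eq` and `eI_duhamel` twice. -/
theorem TopTh.topG_lip {Θ Θ' : K →L[ℂ] K} (h : M.TopTh Θ) (h' : M.TopTh Θ') (hc : Commute Θ Θ') :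
    ‖M.topG Θ - M.topG Θ'‖ ≤ 4 * ‖Θ M.Ω - Θ' M.Ω‖ := by
  have hI : (1 / (2 * I) : ℂ) = -I / 2 := by
    field_simp; simp
  have hn : ‖(-I / 2 : ℂ)‖ = 1 / 2 := by simp
  have d1 := eI_duhamel h.topA_sa3 h'.topA_sa3
    ((hc.smul_left (2 : ℂ)).smul_right (2 : ℂ)).neg_left.neg_right M.Ω
  have d2 := eI_duhamel h.topA_sa2 h'.topA_sa2
    ((hc.smul_left (2 : ℂ)).smul_right (2 : ℂ)) M.Ω
  have n1 : ‖(-((2 : ℂ) • Θ)) M.Ω - (-((2 : ℂ) • Θ')) M.Ω‖ = 2 * ‖Θ M.Ω - Θ' M.Ω‖ := by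
    have : (-((2 : ℂ) • Θ)) M.Ω - (-((2 : ℂ) • Θ')) M.Ω = (-2 : ℂ) • (Θ M.Ω - Θ' M.Ω) := by
      simp only [ContinuousLinearMap.neg_apply, ContinuousLinearMap.smul_apply]; module
    rw [this, norm_smul]; simp
  have n2 : ‖((2 : ℂ) • Θ) M.Ω - ((2 : ℂ) • Θ') M.Ω‖ = 2 * ‖Θ M.Ω - Θ' M.Ω‖ := by
    have : ((2 : ℂ) • Θ) M.Ω - ((2 : ℂ) • Θ') M.Ω = (2 : ℂ) • (Θ M.Ω - Θ' M.Ω) := by
      simp only [ContinuousLinearMap.smul_apply]; module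
    rw [this, norm_smul]; simp
  rw [n1] at d1
  rw [n2] at d2
  rw [h.topG_eq, h'.topG_eq, hI]
  unfold topOdd
  set a := eI (-((2 : ℂ) • Θ)) M.Ω
  set b := eI ((2 : ℂ) • Θ) M.Ω
  set a' := eI (-((2 : ℂ) • Θ')) M.Ω
  set b' := eI ((2 : ℂ) • Θ') M.Ω
  have e : (-I / 2 : ℂ) • (a - b) + (-I / 2 : ℂ) • M.Z (a + b) -
      ((-I / 2 : ℂ) • (a' - b') + (-I / 2 : ℂ) • M.Z (a' + b')) =
      (-I / 2 : ℂ) • (((a - a') - (b - b')) + M.Z ((a - a') + (b - b'))) := by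
    simp only [map_add, map_sub]; module
  rw [e, norm_smul, hn]
  have t1 := norm_add_le ((a - a') - (b - b')) (M.Z ((a - a') + (b - b')))
  rw [unit_norm M.Z_mem] at t1
  have t2 := norm_sub_le (a - a') (b - b')
  have t3 := norm_add_le (a - a') (b - b')
  linarith

/-- `psi_RX` (`cos (π/2) = 0`), `sand_close` with `A = Y`, `U = Wu * E`; `Wu` commutes with `Y = i X Z`,
so `U* Y U Ω = topG`. -/
theorem TopTh.psi_close {Θ T : K →L[ℂ] K} (h : M.TopTh Θ) {Y : Finset K} {ε : ℝ}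
    (hw : M.Wclose f (eI (M.Z * Θ)) T Y ε) (hT : T ∈ unitary (K →L[ℂ] K)) (h1 : M.Ω ∈ Y)
    (h2 : M.topG Θ ∈ Y) : ‖M.psi (M.RX (Real.pi / 4) * T) - M.topG Θ‖ ≤ 2 * ε := by
  obtain ⟨Wu, hWu, hZ, hX, -, hY⟩ := hw
  have hU : Wu * eI (M.Z * Θ) ∈ unitary (K →L[ℂ] K) := mul_mem hWu h.mem
  have e0 : M.psi (M.RX (Real.pi / 4) * T) = star T (M.Y (T M.Ω)) := by
    rw [M.psi_RX, show 2 * (Real.pi / 4) = Real.pi / 2 by ring, Real.cos_pi_div_two,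
      Real.sin_pi_div_two]
    simp
  have e1 : star (Wu * eI (M.Z * Θ)) (M.Y ((Wu * eI (M.Z * Θ)) M.Ω)) = M.topG Θ := by
    unfold topG
    have c : ∀ x, M.Y (Wu x) = Wu (M.Y x) := fun x =>
      congrArg (fun S : K →L[ℂ] K => S x) (topA_Y_commute hZ hX).eq
    rw [star_mul, ContinuousLinearMap.mul_apply, ContinuousLinearMap.mul_apply, c,
      unit_star_apply hWu]
  have s := sand_close hT hU M.Y M.Ω
  rw [e1] at s
  rw [e0]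
  have a1 := hY _ h1
  have a2 := hY _ h2
  have a3 := unit_opnorm M.Y_mem
  simp only [ContinuousLinearMap.mul_apply] at s a1 a2
  have a4 : ‖M.Y‖ * ‖T M.Ω - Wu (eI (M.Z * Θ) M.Ω)‖ ≤ ε :=
    (mul_le_of_le_one_left (norm_nonneg _) a3).trans a1
  linarith

end Model
end Crest.Agent.R339
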