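import Crest.Agent.R339.D2.Top.A

/-! # Row 339, D2/Top part B: the energy -/

set_option autoImplicit false
open MeasureTheory ProbabilityTheory Filter Topology Complex
open Crest.MathPhysics.SpinGlass

namespace Crest.Agent.R339
variable {E K : Type} [NormedAddCommGroup E] [InnerProductSpace ℂ E]
  [NormedAddCommGroup K] [InnerProductSpace ℂ K] [CompleteSpace K]
namespace Model
variable {M : Model E K} {j : Lp K 2 mu0 →ₗᵢ[ℂ] E} {η : ℝ} {P : ℕ → List (ℝ × (ℕ → ℝ))}
  {f : Set ℝ → ℕ → E}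

/-- The closed subspace `N = {x | ∀ g, ⟪d, g⟫ = 0 → ⟪ι d, W g x⟫ = 0}` contains `Ω` (`ι_W`) and is invariant
under `W h` for `⟪d, h⟫ = 0` (`W_mul`), hence under `opS` (induction on the list, `b3_cons`) and under
`eI (c • opS)` (the operators preserving `N` form a closed subalgebra, `NormedSpace.exp_mem`, or sum the
exponential series); take `g = 0`. -/
theorem iota_eI_orth (M : Model E K) (Q : List (ℝ × (ℕ → ℝ))) (q : ℕ) (g : ℕ → E) (d : E)
    (hd : ∀ i, inner ℂ d (g i) = 0) (c : ℂ) :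
    inner ℂ (M.ι d) (eI (c • M.opS Q q g) M.Ω) = 0 := by
  let N : K → Prop := fun x => ∀ g', inner ℂ d g' = 0 → inner ℂ (M.ι d) (M.W g' x) = 0
  let S : Subalgebra ℂ (K →L[ℂ] K) :=
    { carrier := {A | ∀ x, N x → N (A x)}
      mul_mem' := fun {A B} hA hB x hx => hA _ (hB x hx)
      add_mem' := fun {A B} hA hB x hx g' hg' => by
        rw [add_apply, map_add, inner_add_right, hA x hx g' hg', hB x hx g' hg', add_zero]
      algebraMap_mem' := fun r x hx g' hg' => by
        rw [Algebra.algebraMap_eq_smul_one, smul_apply, one_apply_eq_self, map_smul,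
          inner_smul_right, hx g' hg', mul_zero] }
  have hS : IsClosed (S : Set (K →L[ℂ] K)) := by
    have : (S : Set (K →L[ℂ] K)) = ⋂ x, ⋂ (_ : N x), ⋂ g', ⋂ (_ : inner ℂ d g' = 0),
        {A : K →L[ℂ] K | inner ℂ (M.ι d) (M.W g' (A x)) = 0} := by
      ext A
      simp only [Set.mem_iInter]
      rfl
    rw [this]
    exact isClosed_iInter fun x => isClosed_iInter fun _ => isClosed_iInter fun g' => isClosed_iInter fun _ =>
      isClosed_eq (by fun_prop) continuous_const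
  have hW : ∀ h, inner ℂ d h = 0 → M.W h ∈ S := fun h hh x hx g' hg' => by
    rw [← mul_apply_eq_comp, M.W_mul, smul_apply, inner_smul_right,
      hx _ (by rw [inner_add_right, hh, hg', add_zero]), mul_zero]
  have hO : M.opS Q q g ∈ S := by
    induction Q with
    | nil => rw [M.b3_nil]; exact zero_mem S
    | cons t Q ih =>
      rw [M.b3_cons]
      have h1 : inner ℂ d (∑ i ∈ Finset.range (q + 1), ((t.2 i : ℝ) : ℂ) • g i) = 0 := by
        rw [inner_sum]
        exact Finset.sum_eq_zero fun i _ => by rw [inner_smul_right, hd, mul_zero]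
      exact add_mem (S.smul_mem (S.smul_mem (sub_mem (hW _ (by rw [inner_neg_right, h1, neg_zero])) (hW _ h1)) _) _) ih
  have hE : eI (c • M.opS Q q g) ∈ S :=
    hS.mem_of_tendsto (NormedSpace.exp_series_hasSum_exp' (𝕂 := ℂ) ((-I) • c • M.opS Q q g))
      (Eventually.of_forall fun s => sum_mem fun n _ => S.smul_mem (pow_mem (S.smul_mem (S.smul_mem hO _) _) _) _)
  have := hE M.Ω (fun g' hg' => by rw [M.ι_W, hg', mul_zero, zero_mul]) 0 (inner_zero_right _)
  rwa [M.W_zero] at this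

/-- `topG = topVec + topOdd` (`topG_eq`), `JJ_add`; `⟪topOdd, ι _⟫ = 0` (`inner_even_odd`, `X_ι`);
`d = JJ (1_D topOdd)` is orthogonal to every `f ∅ i` (`JJ_orth` for `i = 0`, `JJ_inner_const` +
`inner_even_odd` + `X_opS_Ω` for `i + 1`), so `⟪topVec, ι d⟫ = 0` by `iota_eI_orth` (`c = -2, 2`);
the two integrands agree pointwise. -/
theorem EnV_top (hf : M.IsSig j η P f) (ϑ : List (ℝ × (ℕ → ℝ))) (k : ℕ) :
    M.EnV j ((Dt η).indicator fun _ => M.topG (M.opS ϑ k (f ∅))) = M.topVal j η ϑ k (f ∅) := by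
  have hT := M.topTh_opS ϑ k (f ∅)
  have hG : M.topG (M.opS ϑ k (f ∅)) = M.topVec ϑ k (f ∅) + M.topOdd (M.opS ϑ k (f ∅)) := hT.topG_eq
  have hX := hT.X_topOdd
  rw [topVal, hG]
  generalize M.topOdd (M.opS ϑ k (f ∅)) = O at hX
  have e : JJ j ((Dt η).indicator fun _ => M.topVec ϑ k (f ∅) + O) =
      JJ j ((Dt η).indicator fun _ => M.topVec ϑ k (f ∅)) + JJ j ((Dt η).indicator fun _ => O) := by
    rw [← JJ_add j ((memLp_const _).indicator (b4_Dt η)) ((memLp_const _).indicator (b4_Dt η))]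
    congr 1
    funext u
    by_cases hu : u ∈ Dt η <;> simp [hu]
  have hd : ∀ i, inner ℂ (JJ j ((Dt η).indicator fun _ => O)) (f ∅ i) = 0 := fun i => by
    cases i with
    | zero =>
      rw [(hf ∅).1, inner_smul_right, JJ_orth, mul_zero]
      intro u
      by_cases hu : u ∈ Dt η
      · exact Or.inr (Set.indicator_of_notMem (fun h => by linarith [h.1, h.2, hu.1]) _)
      · exact Or.inl (Set.indicator_of_notMem hu _)
    | succ q =>
      rw [(hf ∅).2, JJ_inner_const j (b4_Dt η) ((b4_Dt η).diff MeasurableSet.empty),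
        inner_eq_zero_symm.1 (M.inner_even_odd (M.X_opS_Ω _ _ _) hX), mul_zero]
  have h1 : inner ℂ (M.topVec ϑ k (f ∅)) (M.ι (JJ j ((Dt η).indicator fun _ => O))) = 0 := by
    rw [inner_eq_zero_symm, topVec, inner_smul_right, inner_sub_right, ← neg_smul, M.iota_eI_orth _ _ _ _ hd,
      M.iota_eI_orth _ _ _ _ hd, sub_zero, mul_zero]
  unfold EnV
  congr 2
  funext u
  by_cases hu : u ∈ Dt η
  · rw [Set.indicator_of_mem hu, Set.indicator_of_mem hu, inner_add_left,
      inner_eq_zero_symm.1 (M.inner_even_odd (M.X_ι _) hX), add_zero, e, map_add, inner_add_right, h1, add_zero]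
  · rw [Set.indicator_of_notMem hu, Set.indicator_of_notMem hu, inner_zero_left, inner_zero_left]

/-- `EnV_lip`; `y - 1_D G = 1_D (y - G) + 1_{Dᶜ} y`, `norm_JJ_le`, `mu0.real (Dt η)ᶜ = 2 η`. -/
theorem EnV_close (h0 : 0 < η) (h1 : η ≤ 1 / 1000) {y : ℝ → K} (hy : MemLp y 2 mu0)
    (hy1 : ∀ u, ‖y u‖ ≤ 1) {G : K} (hG : ‖G‖ ≤ 1) {e : ℝ} (he : 0 ≤ e)
    (h : ∀ u ∈ Dt η, ‖y u - G‖ ≤ e) :
    |M.EnV j y - M.EnV j ((Dt η).indicator fun _ => G)| ≤ 2 * e + 3 * Real.sqrt η := by
  have hD := b4_Dt η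
  have hy' : MemLp ((Dt η).indicator fun _ => G) 2 mu0 := (memLp_const _).indicator hD
  have n1 : ‖JJ j y‖ ≤ 1 := b4_norm_JJ zero_le_one hy1
  have n2 : ‖JJ j ((Dt η).indicator fun _ => G)‖ ≤ 1 :=
    b4_norm_JJ zero_le_one fun u => (norm_indicator_le_norm_self _ _).trans hG
  have e1 : JJ j y - JJ j ((Dt η).indicator fun _ => G) =
      JJ j ((Dt η).indicator fun u => y u - G) + JJ j ((Dt η)ᶜ.indicator y) := by
    rw [← JJ_sub j hy hy', ← JJ_add j (MemLp.indicator (f := fun u => y u - G) hD (hy.sub (memLp_const G))) (hy.indicator hD.compl)]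
    congr 1
    funext u
    by_cases hu : u ∈ Dt η <;> simp [hu]
  have n3 : ‖JJ j ((Dt η).indicator fun u => y u - G)‖ ≤ e * Real.sqrt (mu0.real (Dt η)) :=
    norm_JJ_le j hD he (fun u hu => by rw [Set.indicator_of_mem hu]; exact h u hu)
      fun u hu => Set.indicator_of_notMem hu _
  have n4 : ‖JJ j ((Dt η)ᶜ.indicator y)‖ ≤ 1 * Real.sqrt (mu0.real (Dt η)ᶜ) :=
    norm_JJ_le j hD.compl zero_le_one (fun u _ => (norm_indicator_le_norm_self _ _).trans (hy1 u))
      fun u hu => Set.indicator_of_notMem hu _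
  have m1 : Real.sqrt (mu0.real (Dt η)) ≤ 1 := Real.sqrt_le_one.2 measureReal_le_one
  have m2 : Real.sqrt (mu0.real (Dt η)ᶜ) ≤ 3 / 2 * Real.sqrt η := by
    rw [probReal_compl_eq_one_sub hD, Dt, mu0_Ico (by linarith) (by linarith) le_rfl, Real.sqrt_le_iff]
    exact ⟨by positivity, by nlinarith [Real.sq_sqrt h0.le]⟩
  have n5 : ‖JJ j y - JJ j ((Dt η).indicator fun _ => G)‖ ≤ e + 3 / 2 * Real.sqrt η := by
    rw [e1]
    refine (norm_add_le _ _).trans ?_
    nlinarith
  refine (M.EnV_lip j hy hy').trans ?_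
  calc _ ≤ (1 + 1) * (e + 3 / 2 * Real.sqrt η) := by gcongr
    _ = _ := by ring

end Model
end Crest.Agent.R339
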